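import Vale.Agent.P147.Final

open MeasureTheory ProbabilityTheory Vale.Agent.P147

theorem Vale.Agent.Results.P147.A_ZeroOne.result (d : ℕ) (μ : Measure (Row d))
    [IsProbabilityMeasure μ] (hell : μ {p | ∀ e : Step d, 0 < p.1 e} = 1)
    (ℓ : Fin d → ℝ) (hℓ : ℓ ≠ 0) :
    (∃ P : Kernel (Envir d) (ℕ → Site d), IsQuenched P) ∧
      ∀ P : Kernel (Envir d) (ℕ → Site d), IsQuenched P →
        annealed μ P (Escape ℓ) = 0 ∨ annealed μ P (Escape ℓ) = 1 :=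
  ⟨⟨P0, isQuenched_P0⟩, zero_one_law μ hell ℓ hℓ⟩
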